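import Mathlib

namespace Vale.Agent.Results.P129.CountableTotalReduction

universe u

/-- `X` admits a bounded linear surjection onto a separable infinite-dimensional Banach space. -/
def HasSepQuot (𝕜 : Type) [RCLike 𝕜] (X : Type u) [NormedAddCommGroup X] [NormedSpace 𝕜 X] :
    Prop :=
  ∃ (Z : Type u) (_ : NormedAddCommGroup Z) (_ : NormedSpace 𝕜 Z),
    CompleteSpace Z ∧ TopologicalSpace.SeparableSpace Z ∧ ¬ FiniteDimensional 𝕜 Z ∧
      ∃ T : X →L[𝕜] Z, Function.Surjective T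

/-- Countably many bounded linear functionals separate the points of `X`. -/
def CountablySeparated (𝕜 : Type) [RCLike 𝕜] (X : Type u) [NormedAddCommGroup X]
    [NormedSpace 𝕜 X] : Prop :=
  ∃ S : Set (X →L[𝕜] 𝕜), S.Countable ∧ ∀ x : X, (∀ g ∈ S, g x = 0) → x = 0

variable {𝕜 : Type} [RCLike 𝕜] {X : Type u} [NormedAddCommGroup X] [NormedSpace 𝕜 X]

theorem exists_quot [CompleteSpace X] (h : ¬ FiniteDimensional 𝕜 X) :
    ∃ (X' : Type u) (_ : NormedAddCommGroup X') (_ : NormedSpace 𝕜 X'),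
      CompleteSpace X' ∧ ¬ FiniteDimensional 𝕜 X' ∧ CountablySeparated 𝕜 X' ∧
        ∃ T : X →L[𝕜] X', Function.Surjective T := by
  classical
  obtain ⟨R, f, hR, hfR, hsep⟩ := exists_seq_norm_le_one_le_norm_sub (𝕜 := 𝕜) h
  choose g hg1 hg2 using fun p : ℕ × ℕ => exists_dual_vector'' 𝕜 (f p.1 - f p.2)
  let M : Submodule 𝕜 X := ⨅ p, LinearMap.ker (g p : X →ₗ[𝕜] 𝕜)
  have hMmem : ∀ x, x ∈ M ↔ ∀ p, g p x = 0 := by
    intro x
    simp [M, Submodule.mem_iInf]
  have hMc : IsClosed (M : Set X) := by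
    have : (M : Set X) = ⋂ p, {x | g p x = 0} := by
      ext x
      simp [hMmem]
    rw [this]
    exact isClosed_iInter fun p => isClosed_eq (g p).continuous continuous_const
  have := hMc
  -- the lifted functionals
  let gl : ℕ × ℕ → (X ⧸ M) →ₗ[𝕜] 𝕜 := fun p =>
    M.liftQ (g p : X →ₗ[𝕜] 𝕜) (fun x hx => by
      rw [LinearMap.mem_ker]
      exact (hMmem x).1 hx p)
  have hgl : ∀ p x, gl p (Submodule.Quotient.mk x) = g p x := fun p x => rfl
  have hbound : ∀ p (z : X ⧸ M), ‖gl p z‖ ≤ 1 * ‖z‖ := by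
    intro p z
    rw [one_mul]
    apply le_of_forall_pos_lt_add
    intro ε hε
    obtain ⟨m, hm, hlt⟩ := Submodule.Quotient.norm_mk_lt z hε
    rw [← hm, hgl]
    calc ‖g p m‖ ≤ ‖g p‖ * ‖m‖ := (g p).le_opNorm m
      _ ≤ 1 * ‖m‖ := by gcongr; exact hg1 p
      _ = ‖m‖ := one_mul _
      _ < ‖(Submodule.Quotient.mk m : X ⧸ M)‖ + ε := by rw [hm]; exact hlt
  let gc : ℕ × ℕ → (X ⧸ M) →L[𝕜] 𝕜 := fun p => (gl p).mkContinuous 1 (hbound p)
  refine ⟨X ⧸ M, inferInstance, inferInstance, inferInstance, ?_, ?_, M.mkQL, ?_⟩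
  · intro hfd
    have := hfd
    have : ProperSpace (X ⧸ M) := FiniteDimensional.proper 𝕜 (X ⧸ M)
    let y : ℕ → X ⧸ M := fun n => Submodule.Quotient.mk (f n)
    have hyb : Bornology.IsBounded (Set.range y) := by
      rw [isBounded_iff_forall_norm_le]
      refine ⟨R, ?_⟩
      rintro _ ⟨n, rfl⟩
      exact (Submodule.Quotient.norm_mk_le M (f n)).trans (hfR n)
    obtain ⟨a, -, φ, hφ, hlim⟩ := tendsto_subseq_of_bounded hyb (fun n => Set.mem_range_self n)
    have hc : CauchySeq (y ∘ φ) := hlim.cauchySeq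
    rw [Metric.cauchySeq_iff] at hc
    obtain ⟨N, hN⟩ := hc 1 one_pos
    have h1 := hN N le_rfl (N + 1) (Nat.le_succ N)
    have hne : φ N ≠ φ (N + 1) := (hφ (Nat.lt_succ_self N)).ne
    have h2 : (1 : ℝ) ≤ ‖y (φ N) - y (φ (N + 1))‖ := by
      have h3 := hbound (φ N, φ (N + 1)) (y (φ N) - y (φ (N + 1)))
      have h4 : y (φ N) - y (φ (N + 1)) = Submodule.Quotient.mk (f (φ N) - f (φ (N + 1))) := rfl
      rw [h4, hgl, hg2, one_mul] at h3
      have h5 := hsep hne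
      have h6 : ‖((‖f (φ N) - f (φ (N + 1))‖ : ℝ) : 𝕜)‖ = ‖f (φ N) - f (φ (N + 1))‖ := by
        simp
      rw [h4]
      linarith [h6 ▸ h3]
    rw [dist_eq_norm] at h1
    simp only [Function.comp] at h1
    linarith
  · refine ⟨Set.range gc, Set.countable_range gc, ?_⟩
    intro z hz
    obtain ⟨x, rfl⟩ := Submodule.Quotient.mk_surjective M z
    rw [Submodule.Quotient.mk_eq_zero, hMmem]
    intro p
    have := hz (gc p) ⟨p, rfl⟩
    exact this
  · exact Submodule.Quotient.mk_surjective M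

theorem HasSepQuot.of_surjective {X' : Type u} [NormedAddCommGroup X'] [NormedSpace 𝕜 X']
    (T : X →L[𝕜] X') (hT : Function.Surjective T) (h : HasSepQuot 𝕜 X') : HasSepQuot 𝕜 X := by
  obtain ⟨Z, i1, i2, hc, hs, hfd, S, hS⟩ := h
  exact ⟨Z, i1, i2, hc, hs, hfd, S.comp T, hS.comp hT⟩

/-- The separable quotient problem reduces to Banach spaces whose points are separated by countably
many bounded linear functionals. -/
theorem result (𝕜 : Type) [RCLike 𝕜] :
    (∀ (X : Type u) [NormedAddCommGroup X] [NormedSpace 𝕜 X] [CompleteSpace X],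
      ¬ FiniteDimensional 𝕜 X →
      ∃ (X' : Type u) (_ : NormedAddCommGroup X') (_ : NormedSpace 𝕜 X'),
        CompleteSpace X' ∧ ¬ FiniteDimensional 𝕜 X' ∧ CountablySeparated 𝕜 X' ∧
          (∃ T : X →L[𝕜] X', Function.Surjective T) ∧ (HasSepQuot 𝕜 X' → HasSepQuot 𝕜 X)) ∧
    ((∀ (X : Type u) [NormedAddCommGroup X] [NormedSpace 𝕜 X] [CompleteSpace X],
        ¬ FiniteDimensional 𝕜 X → HasSepQuot 𝕜 X) ↔
      (∀ (X : Type u) [NormedAddCommGroup X] [NormedSpace 𝕜 X] [CompleteSpace X],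
        ¬ FiniteDimensional 𝕜 X → CountablySeparated 𝕜 X → HasSepQuot 𝕜 X)) := by
  have key : ∀ (X : Type u) [NormedAddCommGroup X] [NormedSpace 𝕜 X] [CompleteSpace X],
      ¬ FiniteDimensional 𝕜 X →
      ∃ (X' : Type u) (_ : NormedAddCommGroup X') (_ : NormedSpace 𝕜 X'),
        CompleteSpace X' ∧ ¬ FiniteDimensional 𝕜 X' ∧ CountablySeparated 𝕜 X' ∧
          (∃ T : X →L[𝕜] X', Function.Surjective T) ∧ (HasSepQuot 𝕜 X' → HasSepQuot 𝕜 X) := by
    intro X _ _ _ h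
    obtain ⟨X', i1, i2, hc, hfd, hcs, T, hT⟩ := exists_quot (𝕜 := 𝕜) h
    exact ⟨X', i1, i2, hc, hfd, hcs, ⟨T, hT⟩, fun hq => HasSepQuot.of_surjective T hT hq⟩
  refine ⟨key, fun H X _ _ _ h _ => H X h, fun H X _ _ _ h => ?_⟩
  obtain ⟨X', i1, i2, hc, hfd, hcs, -, himp⟩ := key X h
  exact himp (H X' hfd hcs)

end Vale.Agent.Results.P129.CountableTotalReduction
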